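import Vale.Agent.P088.H639.En

/-!
# P088, Theorem B (no condition at the boundary): definitions and rows
-/

open MeasureTheory Set Filter
open scoped ContDiff Matrix Topology

noncomputable section

namespace Vale.Agent.P088.BD

open Vale.Agent.P088.LR Vale.Agent.P088.H639

variable {n : ℕ}

/-- The domain `{t > 0}`. -/
abbrev Om (t : V n → ℝ) : Set (V n) := {x | 0 < t x}

/-- `{t > 0}` is a smooth bounded domain with boundary `{t = 0}`. -/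
structure Dom (t : V n → ℝ) : Prop where
  sm : ContDiff ℝ ∞ t
  bd : Bornology.IsBounded (Om t)
  nd : ∀ x, t x = 0 → fderiv ℝ t x ≠ 0

/-- The gradient. -/
def gr (u : V n → ℝ) (x : V n) : V n := fun i => pd i u x

/-- `f` is flat on `{t = 0}`: divisible by all powers of `t`. -/
def Flat (t f : V n → ℝ) : Prop :=
  ∀ m : ℕ, ∃ h : V n → ℝ, ContDiff ℝ ∞ h ∧ ∀ x, f x = t x ^ m * h x

/-- `div (s ∇u)`, real. -/
def dvr (s : MF n) (u : V n → ℝ) (x : V n) : ℝ :=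
  ∑ i, pd i (fun y => ∑ j, s y i j * pd j u y) x

/-- `b(∇U, conj ∇U)`, real part. -/
def qf (b : MF n) (U : V n → ℂ) (x : V n) : ℝ :=
  ∑ i, ∑ k, b x i k * (pd i U x * (starRingEnd ℂ) (pd k U x)).re

/-- The Jacobian matrix `∂_j F_i`. -/
def Jc (F : V n → V n) (x : V n) : Matrix (Fin n) (Fin n) ℝ := fun i j => pd j F x i

/-- `s - 1` is `C^m`-small. -/
def Sm1 (m : ℕ) (ε : ℝ) (s : MF n) : Prop :=
  ∀ i j, Cl m ε (fun x => s x i j - (1 : Matrix (Fin n) (Fin n) ℝ) i j)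

/-- Local rigidity of the Euclidean metric on `Ω`, no condition at the boundary. -/
def LocB (n : ℕ) (Ω : Set (V n)) : Prop := ∃ (k : ℕ) (ε : ℝ), 0 < ε ∧ ∀ g : MF n, SmM g →
  (∀ x, (g x).PosDef) → Sm1 k ε g → SE Ω (fun _ => 1) (sg g) →
  ∃ F K : V n → V n, ContDiff ℝ ∞ F ∧ ContDiff ℝ ∞ K ∧ (∀ x, K (F x) = x) ∧ (∀ y, F (K y) = y) ∧
    F '' Ω = Ω ∧ (∀ x ∈ frontier Ω, F x = x) ∧ ∀ x ∈ Ω, g x = (Jc F x)ᵀ * Jc F x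

/-! ## Rows -/

/-- (GEO) -/
def RowGEO : Prop := ∀ {n : ℕ} (t : V n → ℝ), Dom t → IsOpen (Om t) ∧
  closure (Om t) = {x | 0 ≤ t x} ∧ frontier (Om t) = {x | t x = 0} ∧
  interior (closure (Om t)) = Om t

/-- (DOM) cut-off at infinity. -/
def RowDOM : Prop := ∀ {n : ℕ} (t : V n → ℝ), Dom t → ∃ t' : V n → ℝ, Dom t' ∧ Om t' = Om t ∧
  HasCompactSupport (fun x => t' x + 1)

/-- (HAD) division by `t`. -/
def RowHAD : Prop := ∀ {n : ℕ} (t f : V n → ℝ), ContDiff ℝ ∞ t →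
  (∀ x, t x = 0 → fderiv ℝ t x ≠ 0) → ContDiff ℝ ∞ f → (∀ x, t x = 0 → f x = 0) →
  ∃ h : V n → ℝ, ContDiff ℝ ∞ h ∧ ∀ x, f x = t x * h x

/-- (FL) flat functions. -/
def RowFL : Prop := ∀ {n : ℕ} (t : V n → ℝ), Dom t →
  (∀ (f : V n → ℝ) (m : ℕ), ContDiff ℝ ∞ f → Flat t (fun x => t x ^ m * f x) →
    ∀ x, t x = 0 → f x = 0) ∧
  (∀ f : V n → ℝ, Flat t f → ContDiff ℝ ∞ f ∧ ∀ i, Flat t (pd i f)) ∧
  (∀ f g : V n → ℝ, Flat t f → Flat t g → Flat t fun x => f x + g x) ∧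
  ∀ f g : V n → ℝ, Flat t f → ContDiff ℝ ∞ g → Flat t fun x => g x * f x

/-- (ZERO) extension by zero of a flat function. -/
def RowZERO : Prop := ∀ {n : ℕ} (t f : V n → ℝ), Dom t → Flat t f →
  ContDiff ℝ ∞ ((Om t).indicator f) ∧ ∀ k ε, Cl k ε f → Cl k ε ((Om t).indicator f)

/-- (BOR) Borel's lemma along `{t = 0}`, with smallness. -/
def RowBOR : Prop := ∀ {n : ℕ} (t : V n → ℝ), Dom t → HasCompactSupport (fun x => t x + 1) →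
  ∀ (k : ℕ) (ε : ℝ), 0 < ε → ∃ δ > 0, ∀ a : ℕ → V n → ℝ, (∀ m, ContDiff ℝ ∞ (a m)) →
    (∀ m ≤ k, Cl k δ (a m)) → ∃ u : V n → ℝ, ContDiff ℝ ∞ u ∧ Cl k ε u ∧
      ∀ M : ℕ, ∃ h : V n → ℝ, ContDiff ℝ ∞ h ∧
        ∀ x, u x = (∑ m ∈ Finset.range M, t x ^ m * a m x) + t x ^ M * h x

/-- (REC) the formal solution of the Cauchy problem, with smallness. -/
def RowREC : Prop := ∀ {n : ℕ} (t : V n → ℝ), Dom t → HasCompactSupport (fun x => t x + 1) →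
  ∀ (k : ℕ) (δ : ℝ), 0 < δ → ∃ (m : ℕ) (ε : ℝ), 0 < ε ∧ ∀ s : MF n, SmM s →
    (∀ x, (s x).IsSymm) → Sm1 m ε s → ∀ β ρ : V n → ℝ, ContDiff ℝ ∞ β → ContDiff ℝ ∞ ρ →
    Cl m ε β → Cl m ε ρ → ∃ a : ℕ → V n → ℝ, (∀ i, ContDiff ℝ ∞ (a i)) ∧
      (∀ i ≤ k, Cl k δ (a i)) ∧ (∀ x, a 0 x = 0) ∧
      (∀ x, t x = 0 → (gr t x ⬝ᵥ (s x *ᵥ gr t x)) * a 1 x = β x) ∧
      ∀ M : ℕ, ∃ r : V n → ℝ, ContDiff ℝ ∞ r ∧ ∀ x,
        dvr s (fun y => ∑ i ∈ Finset.range (M + 2), t y ^ i * a i y) x + ρ x = t x ^ M * r x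

/-- (CAU) the solution of the Cauchy problem modulo flat functions; from BOR and REC. -/
def RowCAU : Prop := ∀ {n : ℕ} (t : V n → ℝ), Dom t → HasCompactSupport (fun x => t x + 1) →
  ∀ (k : ℕ) (ε' : ℝ), 0 < ε' → ∃ (m : ℕ) (ε : ℝ), 0 < ε ∧ ∀ s : MF n, SmM s →
    (∀ x, (s x).IsSymm) → Sm1 m ε s → ∀ β ρ : V n → ℝ, ContDiff ℝ ∞ β → ContDiff ℝ ∞ ρ →
    Cl m ε β → Cl m ε ρ → ∃ u : V n → ℝ, ContDiff ℝ ∞ u ∧ Cl k ε' u ∧ (∀ x, t x = 0 → u x = 0) ∧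
      (∀ x, t x = 0 → gr t x ⬝ᵥ (s x *ᵥ gr u x) = β x) ∧ Flat t (fun x => dvr s u x + ρ x)

/-- (HOM) `H = id + w` maps the domain onto itself. -/
def RowHOM : Prop := ∀ {n : ℕ} (t : V n → ℝ), Dom t → ∀ w K : V n → V n, Dif univ w K →
  (∀ x, t x = 0 → w x = 0) → (∀ x, ‖fderiv ℝ w x‖ ≤ 1 / 2) →
  (fun x => x + w x) '' Om t = Om t

/-- (PUE) energies of the push-forward. -/
def RowPUE : Prop := ∀ {n : ℕ} (t : V n → ℝ), Dom t → ∀ w K : V n → V n, Dif univ w K →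
  (∀ x, t x = 0 → w x = 0) → (fun x => x + w x) '' Om t = Om t → ∀ s : MF n, SmM s →
  ∀ f : V n → ℝ, En (Om t) (psh s w K) f = En (Om t) s f

/-- (PUD) divergence of the push-forward (Piola) and the normal component. -/
def RowPUD : Prop := ∀ {n : ℕ} (t : V n → ℝ), Dom t → ∀ w K : V n → V n, Dif univ w K →
  (∀ x, t x = 0 → w x = 0) → ∀ s : MF n, SmM s → (∀ x, (s x).IsSymm) →
  ((∀ a, Flat t (dvr s fun y => y a + w y a)) →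
    ∀ c, Flat t (fun x => ∑ i, pd i (fun y => psh s w K y i c) x)) ∧
  ((∀ a x, t x = 0 → gr t x ⬝ᵥ (s x *ᵥ gr (fun y => y a + w y a) x) = gr t x a) →
    ∀ x, t x = 0 → psh s w K x *ᵥ gr t x = gr t x)

/-- (CONC) concentration. -/
def RowCONC : Prop := ∀ {n : ℕ} (t : V n → ℝ), Dom t → ∀ x₀, t x₀ = 0 → ∀ φ : V n → ℝ,
  ContinuousOn φ (closure (Om t)) → φ x₀ = 0 → (∀ x ∈ closure (Om t), x ≠ x₀ → 0 < φ x) →
  ∀ (j : ℕ) (F : ℕ → V n → ℝ) (F₀ : V n → ℝ), (∀ N, ContinuousOn (F N) (closure (Om t))) →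
    ContinuousOn F₀ (closure (Om t)) → TendstoUniformlyOn F F₀ atTop (closure (Om t)) →
    (∀ N : ℕ, 0 < ∫ x in Om t, t x ^ j * Real.exp (-2 * N * φ x)) ∧
    Tendsto (fun N : ℕ => (∫ x in Om t, t x ^ j * F N x * Real.exp (-2 * N * φ x)) /
      ∫ x in Om t, t x ^ j * Real.exp (-2 * N * φ x)) atTop (𝓝 (F₀ x₀))

/-- (PROBE) harmonic functions which concentrate at a boundary point; from CONC. -/
def RowPROBE : Prop := ∀ {n : ℕ}, 3 ≤ n → ∀ t : V n → ℝ, Dom t → ∀ x₀, t x₀ = 0 → ∀ τ : V n,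
  τ ⬝ᵥ gr t x₀ = 0 → τ ⬝ᵥ τ = gr t x₀ ⬝ᵥ gr t x₀ → ∃ U : ℕ → V n → ℂ,
    (∀ N, ContDiff ℝ ∞ (U N)) ∧ (∀ N, ∀ x ∈ Om t, dv (fun _ => 1) (U N) x = 0) ∧ ∀ j : ℕ,
      (∀ᶠ N in atTop, 0 < ∫ x in Om t, t x ^ j * qf (fun _ => 1) (U N) x) ∧
      ∀ b : MF n, (∀ i k, Continuous fun x => b x i k) →
        Tendsto (fun N => (∫ x in Om t, t x ^ j * qf b (U N) x) /
          ∫ x in Om t, t x ^ j * qf (fun _ => 1) (U N) x) atTop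
          (𝓝 ((gr t x₀ ⬝ᵥ (b x₀ *ᵥ gr t x₀) + τ ⬝ᵥ (b x₀ *ᵥ τ)) / (2 * (gr t x₀ ⬝ᵥ gr t x₀))))

/-- (BDI) the inequality from equal energies. -/
def RowBDI : Prop := ∀ {n : ℕ} (Ω : Set (V n)), IsOpen Ω → Bornology.IsBounded Ω →
  ∀ s : MF n, SmM s → (∀ x, (s x).IsSymm) →
  (∀ x v, -(1 / 2) * (v ⬝ᵥ v) ≤ v ⬝ᵥ ((s x - 1) *ᵥ v)) → SE Ω (fun _ => 1) s →
  ∀ U : V n → ℂ, ContDiff ℝ ∞ U → (∀ x ∈ Ω, dv (fun _ => 1) U x = 0) →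
    0 ≤ ∫ x in Ω, qf (fun x => s x - 1) U x ∧
    ∫ x in Ω, qf (fun x => s x - 1) U x ≤ 2 * ∫ x in Ω, qf (fun x => (s x - 1) * (s x - 1)) U x

/-- (TEST) the leading coefficient vanishes; from PROBE and BDI. -/
def RowTEST : Prop := ∀ {n : ℕ}, 3 ≤ n → ∀ t : V n → ℝ, Dom t → ∀ s : MF n, SmM s →
  (∀ x, (s x).IsSymm) → (∀ x v, |v ⬝ᵥ ((s x - 1) *ᵥ v)| ≤ 1 / 4 * (v ⬝ᵥ v)) →
  SE (Om t) (fun _ => 1) s → ∀ (j : ℕ) (b : MF n), SmM b →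
  (∀ x, s x - 1 = t x ^ j • b x) → (∀ x, t x = 0 → b x *ᵥ gr t x = 0) →
  ∀ x, t x = 0 → b x = 0

/-- (JETS) `s - 1` is flat on the boundary; from TEST, HAD, FL. -/
def RowJETS : Prop := ∀ {n : ℕ}, 3 ≤ n → ∀ t : V n → ℝ, Dom t → ∀ s : MF n, SmM s →
  (∀ x, (s x).IsSymm) → (∀ x v, |v ⬝ᵥ ((s x - 1) *ᵥ v)| ≤ 1 / 4 * (v ⬝ᵥ v)) →
  SE (Om t) (fun _ => 1) s → (∀ c, Flat t (fun x => ∑ i, pd i (fun y => s y i c) x)) →
  (∀ x, t x = 0 → s x *ᵥ gr t x = gr t x) →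
  ∀ i c, Flat t (fun x => s x i c - (1 : Matrix (Fin n) (Fin n) ℝ) i c)

/-- (CHS) the landed theorem in terms of `s` only. -/
def RowCHS : Prop := ∀ n : ℕ, ∃ (k : ℕ) (ε : ℝ), 0 < ε ∧ ∀ Ω : Set (V n), IsOpen Ω →
  interior (closure Ω) = Ω → Ω ⊆ core n → ∀ s : MF n, SmM s → (∀ x, (s x).IsSymm) →
  (∀ x ∉ Ω, s x = 1) → Sm1 k ε s → Star Ω s →
  ∃ w K, Dif Ω w K ∧ ∀ x, psh s w K x = 1

/-- (SC) translation and dilation. -/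
def RowSC : Prop := ∀ {n : ℕ} (Ω : Set (V n)) (r : ℝ) (b : V n), 0 < r → LocB n Ω →
  LocB n {x | r • x + b ∈ Ω}

/-- (TOPB) the theorem on the core; from all rows. -/
def RowTOPB : Prop := ∀ {n : ℕ}, 3 ≤ n → ∀ t : V n → ℝ, Dom t →
  HasCompactSupport (fun x => t x + 1) → Om t ⊆ core n → LocB n (Om t)

/-- **Theorem B.** -/
def TheoremB : Prop := ∀ {n : ℕ}, 3 ≤ n → ∀ t : V n → ℝ, Dom t → LocB n (Om t)

end Vale.Agent.P088.BD
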